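import Vale.Agent.Results.P309.SampleLowerBound
import Vale.Agent.P309.Upper
import Vale.Agent.P309.Infeasible

open MeasureTheory ProbabilityTheory Vale.Agent.P309
open scoped RealInnerProductSpace ENNReal

namespace Vale.Agent.Results.P309.LeastHorizon

/-- counting part: `K ≤ 2 ^ (d log (1/ε) / 4)` states are never enough -/
theorem counting {d : ℕ} (hd : 3000 ≤ d) {ε : ℝ} (hε : 0 < ε) (hεd : ε ≤ 1 / d) {K : ℕ}
    (hK : (K : ℝ) ≤ 2 ^ (1 / 4 * (d : ℝ) * Real.log (1 / ε))) :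
    (K : ℝ) * (2 * 3 ^ d * ε ^ (d - 1)) < 2 / 3 := by
  have hdr : (3000 : ℝ) ≤ d := by exact_mod_cast hd
  have hd0 : (0 : ℝ) < d := by linarith
  obtain ⟨Λ, hΛ⟩ : ∃ Λ : ℝ, Λ = Real.log (1 / ε) := ⟨_, rfl⟩
  rw [← hΛ] at hK
  have hεe : ε = Real.exp (-Λ) := by
    rw [hΛ, one_div, Real.log_inv, neg_neg, Real.exp_log hε]
  have hΛd : Real.log d ≤ Λ := by
    rw [hΛ]
    apply Real.log_le_log hd0
    rw [le_div_iff₀ hε]
    rw [le_div_iff₀ hd0] at hεd
    linarith
  have hlog2 : 0.69 < Real.log 2 := by linarith [Real.log_two_gt_d9]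
  have hlog2' : Real.log 2 < 0.7 := by linarith [Real.log_two_lt_d9]
  have hΛ7 : 7.5 < Λ := by
    have h1 : Real.log (2 ^ 11) ≤ Real.log d :=
      Real.log_le_log (by norm_num) (by linarith)
    rw [Real.log_pow] at h1
    push_cast at h1
    linarith
  have hlog3 : Real.log 3 < 1.11 := by
    have h1 : Real.log 3 < Real.log (Real.exp 1.11) := by
      apply Real.log_lt_log (by norm_num)
      have h2 : Real.exp 1.11 = Real.exp 1 * Real.exp 0.11 := by
        rw [← Real.exp_add]; norm_num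
      have h3 := Real.add_one_le_exp (0.11 : ℝ)
      have h4 := Real.exp_one_gt_d9
      rw [h2]
      nlinarith
    rwa [Real.log_exp] at h1
  have h3 : (3 : ℝ) ^ d = Real.exp (d * Real.log 3) := by
    rw [Real.exp_nat_mul, Real.exp_log (by norm_num)]
  have h2 : (2 : ℝ) ^ (1 / 4 * (d : ℝ) * Λ) = Real.exp (Real.log 2 * (1 / 4 * d * Λ)) := by
    rw [Real.rpow_def_of_pos (by norm_num)]
  have hpow : ε ^ (d - 1) = Real.exp (-((d - 1 : ℕ) : ℝ) * Λ) := by
    rw [hεe, ← Real.exp_nat_mul]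
    congr 1
    ring
  have hd1 : ((d - 1 : ℕ) : ℝ) = d - 1 := by
    rw [Nat.cast_sub (by omega)]; norm_num
  calc (K : ℝ) * (2 * 3 ^ d * ε ^ (d - 1))
      ≤ 2 ^ (1 / 4 * (d : ℝ) * Λ) * (2 * 3 ^ d * ε ^ (d - 1)) := by gcongr
    _ = 2 * Real.exp (Real.log 2 * (1 / 4 * d * Λ) + d * Real.log 3 - (d - 1) * Λ) := by
        rw [h2, h3, hpow, hd1]
        rw [show Real.log 2 * (1 / 4 * d * Λ) + d * Real.log 3 - (d - 1) * Λ =
          Real.log 2 * (1 / 4 * d * Λ) + (d * Real.log 3 + -(d - 1) * Λ) by ring,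
          Real.exp_add, Real.exp_add]
        ring
    _ ≤ 2 * Real.exp (-2) := by
        gcongr
        have h5 : Real.log 2 * (1 / 4 * d * Λ) ≤ 0.7 * (1 / 4 * d * Λ) := by gcongr
        have h6 : d * Real.log 3 ≤ d * 1.11 := by gcongr
        nlinarith
    _ < 2 / 3 := by
        have h7 : Real.exp (-2) < 1 / 3 := by
          rw [Real.exp_neg, ← one_div]
          apply one_div_lt_one_div_of_lt (by norm_num)
          have h8 : Real.exp 2 = Real.exp 1 * Real.exp 1 := by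
            rw [← Real.exp_add]; norm_num
          have h4 := Real.exp_one_gt_d9
          rw [h8]
          nlinarith
        linarith

/-- **Least horizon for noiseless Gaussian regression with `M = O(d²)` bits.**
For every `C₀ ≥ 1` there are `c, C > 0` and `d₀` such that for `d ≥ d₀`, `0 < ε ≤ 1 / d` and every
number `K ≤ 2 ^ (C₀ d²)` of states:
(i) every learner with `K` states that succeeds at accuracy `ε` has horizon `T ≥ c d log (1/ε)`;
(ii) if `K ≥ 2 ^ (C d log (1/ε))`, some learner with `K` states, whose output depends on its final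
state only, succeeds with a horizon `T ≤ C d log (1/ε)`;
(iii) if `K ≤ 2 ^ (c d log (1/ε))`, no learner with `K` states whose output depends on its final
state (and its internal randomness) only succeeds, whatever the horizon. -/
theorem result : ∀ C₀ : ℝ, 1 ≤ C₀ → ∃ c C : ℝ, 0 < c ∧ 0 < C ∧ ∃ d₀ : ℕ, ∀ d : ℕ, d₀ ≤ d →
    ∀ ε : ℝ, 0 < ε → ε ≤ 1 / d → ∀ K : ℕ, (K : ℝ) ≤ 2 ^ (C₀ * (d : ℝ) ^ 2) →
      (∀ (T : ℕ) (L : Learner d K), L.Succeeds T ε → c * d * Real.log (1 / ε) ≤ T) ∧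
      ((2 : ℝ) ^ (C * d * Real.log (1 / ε)) ≤ K →
        ∃ T : ℕ, (T : ℝ) ≤ C * d * Real.log (1 / ε) ∧ ∃ L : Learner d K,
          (∀ t t' ω q, L.out t ω q = L.out t' ω q) ∧ L.Succeeds T ε) ∧
      ((K : ℝ) ≤ 2 ^ (c * d * Real.log (1 / ε)) → ∀ (T : ℕ) (L : Learner d K),
        (∀ t t' ω q, L.out t ω q = L.out t' ω q) → ¬ L.Succeeds T ε) := by
  intro C₀ hC₀
  obtain ⟨c, hc, hlow⟩ := SampleLowerBound.result
  obtain ⟨ε₀, hε₀, d₀, hd₀⟩ := hlow C₀ hC₀
  obtain ⟨C, hC, hup⟩ := kaczmarz_upper'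
  have hC0 : (0 : ℝ) < C₀ := by linarith
  refine ⟨min (c / C₀) (1 / 4), C, by positivity, hC, max (max d₀ 3000) ⌈1 / ε₀⌉₊,
    fun d hd ε hε hεd K hK => ?_⟩
  have hd1 : d₀ ≤ d := (le_max_left _ _).trans ((le_max_left _ _).trans hd)
  have hd2 : 3000 ≤ d := (le_max_right _ _).trans ((le_max_left _ _).trans hd)
  have hd3 : ⌈1 / ε₀⌉₊ ≤ d := (le_max_right _ _).trans hd
  have hdr : (3000 : ℝ) ≤ d := by exact_mod_cast hd2
  have hd0 : (0 : ℝ) < d := by linarith
  have hεε₀ : ε ≤ ε₀ := by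
    refine hεd.trans ?_
    rw [div_le_iff₀ hd0]
    have h1 : 1 / ε₀ ≤ d := (Nat.le_ceil _).trans (by exact_mod_cast hd3)
    rw [div_le_iff₀ hε₀] at h1
    linarith
  have hlog : 0 ≤ Real.log (1 / ε) := by
    apply Real.log_nonneg
    rw [le_div_iff₀ hε]
    rw [le_div_iff₀ hd0] at hεd
    nlinarith
  refine ⟨fun T L hL => ?_, fun hKC => ?_, fun hKc T L hout hL => ?_⟩
  · refine le_trans ?_ (hd₀ d hd1 ε hε hεε₀ K T hK L hL)
    gcongr
    exact min_le_left _ _
  · exact hup d (by omega) ε hε hεd K hKC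
  · have h1 := infeasible L (by omega) hout hε hL
    have h2 : (K : ℝ) ≤ 2 ^ (1 / 4 * (d : ℝ) * Real.log (1 / ε)) := by
      refine hKc.trans (Real.rpow_le_rpow_of_exponent_le (by norm_num) ?_)
      gcongr
      exact min_le_right _ _
    exact absurd h1 (not_le.2 (counting hd2 hε hεd h2))

end Vale.Agent.Results.P309.LeastHorizon
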