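import Vale.Agent.P309.Final

open MeasureTheory ProbabilityTheory Vale.Agent.P309
open scoped RealInnerProductSpace ENNReal

namespace Vale.Agent.Results.P309.SampleLowerBound

/-- There is an absolute constant `c > 0` such that for every `C₀ ≥ 1`, all large `d` and all
small `ε > 0`, every randomized learner with at most `2 ^ (C₀ d²)` states (`M ≤ C₀ d²` bits) and
horizon `T` that succeeds at accuracy `ε` has `T ≥ (c / C₀) d log (1 / ε)`. -/
theorem result : ∃ c : ℝ, 0 < c ∧ ∀ C₀ : ℝ, 1 ≤ C₀ → ∃ ε₀ : ℝ, 0 < ε₀ ∧ ∃ d₀ : ℕ,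
    ∀ d : ℕ, d₀ ≤ d → ∀ ε : ℝ, 0 < ε → ε ≤ ε₀ → ∀ K T : ℕ,
      (K : ℝ) ≤ 2 ^ (C₀ * (d : ℝ) ^ 2) → ∀ L : Learner d K, L.Succeeds T ε →
        c / C₀ * d * Real.log (1 / ε) ≤ T := by
  refine ⟨1 / (4 * (127 * 67771)), by norm_num, fun C₀ hC₀ => ?_⟩
  obtain ⟨C, hC⟩ : ∃ C : ℕ, C = ⌈C₀⌉₊ := ⟨_, rfl⟩
  have hC0 : (0 : ℝ) < C₀ := by linarith
  have hCle : C₀ ≤ C := by rw [hC]; exact Nat.le_ceil C₀
  have hC1 : 1 ≤ C := by
    have : (1 : ℝ) ≤ C := hC₀.trans hCle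
    exact_mod_cast this
  have hC2 : (C : ℝ) ≤ 2 * C₀ := by
    have := Nat.ceil_lt_add_one hC0.le
    rw [← hC] at this
    linarith
  obtain ⟨d₀, hd₀⟩ := main_nat C hC1
  refine ⟨(1 / 2) ^ (77298 * C), by positivity, d₀, fun d hd ε hε hε₀ K T hK L hL => ?_⟩
  have hinv : (2 : ℝ) ^ (77298 * C) ≤ 1 / ε := by
    rw [le_div_iff₀ hε]
    calc (2 : ℝ) ^ (77298 * C) * ε ≤ 2 ^ (77298 * C) * (1 / 2) ^ (77298 * C) := by gcongr
      _ = 1 := by rw [← mul_pow]; norm_num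
  obtain ⟨l, hl⟩ : ∃ l : ℕ, l = ⌊Real.logb 2 (1 / ε)⌋₊ := ⟨_, rfl⟩
  have hlog0 : ((77298 * C : ℕ) : ℝ) ≤ Real.logb 2 (1 / ε) := by
    rw [Real.le_logb_iff_rpow_le (by norm_num) (by positivity), Real.rpow_natCast]
    exact hinv
  have hl1 : 77298 * C ≤ l := by
    rw [hl]; exact Nat.le_floor hlog0
  have hl2 : (l : ℝ) ≤ Real.logb 2 (1 / ε) := by
    rw [hl]; exact Nat.floor_le (le_trans (Nat.cast_nonneg _) hlog0)
  have hl3 : Real.logb 2 (1 / ε) < l + 1 := by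
    rw [hl]; exact Nat.lt_floor_add_one _
  have hεl : ε ≤ (1 / 2) ^ l := by
    rw [Real.le_logb_iff_rpow_le (by norm_num) (by positivity), Real.rpow_natCast,
      le_div_iff₀ hε] at hl2
    rw [one_div, inv_pow, ← one_div, le_div_iff₀ (by positivity)]
    linarith
  have hK' : K ≤ 2 ^ (C * d ^ 2) := by
    have h1 : (K : ℝ) ≤ 2 ^ (((C * d ^ 2 : ℕ) : ℝ)) := by
      refine hK.trans (Real.rpow_le_rpow_of_exponent_le (by norm_num) ?_)
      push_cast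
      gcongr
    rw [Real.rpow_natCast] at h1
    exact_mod_cast h1
  have hmain := hd₀ d hd l K T hl1 hK' L ε hεl hL
  have hmain' : (d : ℝ) * l ≤ 127 * 67771 * C * T := by exact_mod_cast hmain
  have hlogle : Real.log (1 / ε) ≤ 2 * l := by
    have h1 : Real.log (1 / ε) = Real.logb 2 (1 / ε) * Real.log 2 := by
      rw [Real.logb, div_mul_cancel₀]
      exact (Real.log_pos (by norm_num)).ne'
    have h2 : Real.log 2 ≤ 1 := by
      have := Real.log_two_lt_d9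
      linarith
    have h3 : (0 : ℝ) ≤ Real.log 2 := (Real.log_pos (by norm_num)).le
    have h4 : (1 : ℝ) ≤ l := by
      have : 1 ≤ l := by omega
      exact_mod_cast this
    have h5 : (0 : ℝ) ≤ Real.logb 2 (1 / ε) := le_trans (Nat.cast_nonneg _) hl2
    rw [h1]
    nlinarith
  have hT0 : (0 : ℝ) ≤ T := Nat.cast_nonneg _
  have hd0 : (0 : ℝ) ≤ d := Nat.cast_nonneg _
  calc 1 / (4 * (127 * 67771)) / C₀ * d * Real.log (1 / ε)
      ≤ 1 / (4 * (127 * 67771)) / C₀ * d * (2 * l) := by gcongr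
    _ = 1 / (2 * (127 * 67771) * C₀) * (d * l) := by field_simp; ring
    _ ≤ 1 / (2 * (127 * 67771) * C₀) * (127 * 67771 * C * T) := by gcongr
    _ ≤ 1 / (2 * (127 * 67771) * C₀) * (127 * 67771 * (2 * C₀) * T) := by gcongr
    _ = T := by field_simp

end Vale.Agent.Results.P309.SampleLowerBound
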